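import Vale.Agent.P199.Mul

/-!
# P199: conjugacy of algebraic elements with the same minimal polynomial
-/

set_option autoImplicit false

open Finset Polynomial

namespace Vale.Agent.P199

variable {D : Type*} [DivisionRing D]

theorem coeff_iter {R : Type*} [Semiring R] (p : R[X]) (i : ℕ) : ∀ j,
    (divX^[i] p).coeff j = p.coeff (i + j) := by
  induction i with
  | zero => intro j; simp
  | succ i ih =>
    intro j
    rw [Function.iterate_succ_apply', coeff_divX, ih]
    congr 1
    omega

/-- Skolem-Noether for algebraic elements -/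
theorem conj (x y : D) (hx : IsIntegral (Subring.center D) x)
    (hy : aeval y (minpoly (Subring.center D) x) = 0) : ∃ u : D, u ≠ 0 ∧ y * u = u * x := by
  set p := minpoly (Subring.center D) x with hp
  set n := p.natDegree with hn
  have hpm : p.Monic := minpoly.monic hx
  have hn0 : 0 < n := minpoly.natDegree_pos hx
  set c : ℕ → D := fun i => aeval y (divX^[i] p) with hc
  have hcomm : ∀ i, y * c i = c i * y := fun i => by
    have : Commute (aeval y (X : (Subring.center D)[X])) (aeval y (divX^[i] p)) := by
      rw [Commute, SemiconjBy, ← map_mul, ← map_mul, mul_comm]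
    rw [aeval_X] at this
    exact this
  have hrec : ∀ i, c (i + 1) * y = c i - algebraMap (Subring.center D) D (p.coeff i) := by
    intro i
    have h1 : divX^[i] p = divX^[i + 1] p * X + C (p.coeff i) := by
      rw [Function.iterate_succ_apply']
      have h2 := divX_mul_X_add (divX^[i] p)
      have h3 : (divX^[i] p).coeff 0 = p.coeff i := by rw [coeff_iter]; simp
      rw [h3] at h2
      exact h2.symm
    have h4 := congrArg (aeval y) h1
    rw [map_add, map_mul, aeval_X, aeval_C] at h4
    rw [hc]; simp only
    rw [h4, add_sub_cancel_right]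
  have hc0 : c 0 = 0 := hy
  have hcn : c n = 1 := by
    have h1 : divX^[n] p = 1 := by
      ext j
      rw [coeff_iter, coeff_one]
      by_cases hj : j = 0
      · rw [if_pos hj, hj, add_zero]; exact congrArg _ hpm
      · rw [if_neg hj]
        have : p.coeff (n + j) = 0 := coeff_eq_zero_of_natDegree_lt (by omega)
        rw [this]
    rw [hc]; simp only
    rw [h1, map_one]
  obtain ⟨v, hv⟩ : ∃ v : D, ∑ i : Fin n, c (i + 1) * v * x ^ (i : ℕ) ≠ 0 := by
    by_contra hcon
    push Not at hcon
    have h1 := artin_whaples (fun i : Fin n => x ^ (i : ℕ)) (linearIndependent_pow x)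
      (fun i : Fin n => c (i + 1)) hcon ⟨n - 1, by omega⟩
    simp only at h1
    rw [Nat.sub_add_cancel hn0, hcn] at h1
    exact one_ne_zero h1
  refine ⟨_, hv, ?_⟩
  have hcen : ∀ (z : Subring.center D) (w : D), algebraMap (Subring.center D) D z * w
      = w * algebraMap (Subring.center D) D z := fun z w => Algebra.commutes z w
  have hsum : (∑ i : Fin n, c (i + 1) * v * x ^ (i : ℕ)) = ∑ i ∈ range n, c (i + 1) * v * x ^ i :=
    (Finset.sum_range fun i => c (i + 1) * v * x ^ i).symm
  rw [hsum, ← sub_eq_zero, Finset.mul_sum, Finset.sum_mul, ← Finset.sum_sub_distrib]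
  have hterm : ∀ i, y * (c (i + 1) * v * x ^ i) - c (i + 1) * v * x ^ i * x
      = (c i * v * x ^ i - c (i + 1) * v * x ^ (i + 1))
        - v * (algebraMap (Subring.center D) D (p.coeff i) * x ^ i) := by
    intro i
    have h1 : y * (c (i + 1) * v * x ^ i) = (c i - algebraMap (Subring.center D) D (p.coeff i)) * v
        * x ^ i := by
      rw [← hrec, ← hcomm]; simp only [mul_assoc]
    rw [h1, sub_mul, sub_mul, hcen, pow_succ]
    simp only [mul_assoc]
    abel
  rw [Finset.sum_congr rfl fun i _ => hterm i, Finset.sum_sub_distrib,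
    Finset.sum_range_sub' fun i => c i * v * x ^ i, ← Finset.mul_sum, hc0, hcn]
  have hpx : ∑ i ∈ range n, algebraMap (Subring.center D) D (p.coeff i) * x ^ i = - x ^ n := by
    have h1 : aeval x p = 0 := minpoly.aeval _ x
    rw [aeval_eq_sum_range, Finset.sum_range_succ, ← hn] at h1
    have h2 : p.coeff n = 1 := hpm
    rw [h2, one_smul] at h1
    simp only [Algebra.smul_def] at h1
    exact eq_neg_of_add_eq_zero_left h1
  rw [hpx]
  simp

end Vale.Agent.P199
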