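import Vale.Agent.P199.Fd

/-!
# P199: density relative to a finite-dimensional subalgebra; finiteness over the center
-/

set_option autoImplicit false

open Finset

namespace Vale.Agent.P199

universe u v

section dens2

variable {D : Type v} [DivisionRing D]

/-- sums of operators `a ↦ s a y` with `s ∈ A` -/
inductive Lop (A : Subring D) : (D → D) → Prop
  | lr (s y : D) (hs : s ∈ A) : Lop A (fun a => s * a * y)
  | add (f g : D → D) : Lop A f → Lop A g → Lop A (fun a => f a + g a)

variable {A : Subring D}

theorem Lop.lmul (x : D) (hx : x ∈ A) {f : D → D} (hf : Lop A f) : Lop A (fun a => x * f a) := by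
  induction hf with
  | lr y w hy =>
    have := Lop.lr (x * y) w (A.mul_mem hx hy)
    simpa only [mul_assoc] using this
  | add f g _ _ h1 h2 =>
    have := Lop.add _ _ h1 h2
    simpa only [mul_add] using this

theorem Lop.rmul (x : D) {f : D → D} (hf : Lop A f) : Lop A (fun a => f a * x) := by
  induction hf with
  | lr y w hy =>
    have := Lop.lr y (w * x) hy
    simpa only [mul_assoc] using this
  | add f g _ _ h1 h2 =>
    have := Lop.add _ _ h1 h2
    simpa only [add_mul] using this

theorem Lop.zero : Lop A (fun _ : D => (0 : D)) := by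
  have := Lop.lr (0 : D) 0 A.zero_mem
  simpa using this

theorem Lop.id : Lop A (fun a : D => a) := by
  have := Lop.lr (1 : D) 1 A.one_mem
  simpa using this

theorem Lop.sum {ι : Type*} (s : Finset ι) (F : ι → D → D) (hF : ∀ i ∈ s, Lop A (F i)) :
    Lop A (fun a => ∑ i ∈ s, F i a) := by
  classical
  induction s using Finset.induction_on with
  | empty => simpa using Lop.zero
  | insert i s hi ih =>
    have h1 := hF i (mem_insert_self i s)
    have h2 := ih fun j hj => hF j (mem_insert_of_mem hj)
    have := Lop.add _ _ h1 h2
    simpa only [sum_insert hi] using this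

theorem Lop.sub {f g : D → D} (hf : Lop A f) (hg : Lop A g) : Lop A (fun a => f a - g a) := by
  have := Lop.add _ _ hf (hg.rmul (-1))
  simpa only [mul_neg_one, ← sub_eq_add_neg] using this

/-- density relative to `A`; `C` is the centralizer of `A` -/
theorem dens2 (C : Subring D) (hC : ∀ c, (∀ s ∈ A, s * c = c * s) → c ∈ C) (n : ℕ) :
    ∀ a : Fin n → D, LinearIndependent C a → ∀ i,
    ∃ f : D → D, Lop A f ∧ ∀ j, f (a j) = if j = i then 1 else 0 := by
  induction n with
  | zero => intro a _ i; exact i.elim0
  | succ n ih =>
    intro a ha i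
    by_contra hcon
    push Not at hcon
    have ha' : LinearIndependent C (fun l : Fin n => a (i.succAbove l)) :=
      ha.comp _ Fin.succAbove_right_injective
    choose T hT hTa using ih _ ha'
    have key : ∀ f : D → D, Lop A f → (∀ l : Fin n, f (a (i.succAbove l)) = 0) → f (a i) = 0 := by
      intro f hf h0
      by_contra hne
      obtain ⟨j, hj⟩ := hcon _ (hf.rmul (f (a i))⁻¹)
      apply hj
      by_cases hji : j = i
      · rw [if_pos hji, hji, mul_inv_cancel₀ hne]
      · rw [if_neg hji]
        obtain ⟨l, rfl⟩ := Fin.exists_succAbove_eq hji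
        rw [h0 l, zero_mul]
    have star : ∀ f : D → D, Lop A f → f (a i) = ∑ l, T l (a i) * f (a (i.succAbove l)) := by
      intro f hf
      have h1 : Lop A (fun x => f x - ∑ l, T l x * f (a (i.succAbove l))) :=
        hf.sub (Lop.sum _ _ fun l _ => (hT l).rmul _)
      have h2 := key _ h1 fun l => by
        simp only [hTa, ite_mul, one_mul, zero_mul]
        rw [Finset.sum_ite_eq]
        simp
      exact sub_eq_zero.mp h2
    have hb : ∀ l, T l (a i) ∈ C := by
      intro l
      refine hC _ fun s hs => ?_
      have h1 := star _ ((hT l).lmul s hs)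
      simp only [hTa, mul_ite, mul_one, mul_zero] at h1
      rw [Finset.sum_ite_eq'] at h1
      simp only [mem_univ, if_true] at h1
      exact h1
    have h3 := star _ Lop.id
    rw [Fintype.linearIndependent_iff] at ha
    have h4 := ha (fun j => if h : ∃ l, i.succAbove l = j then -⟨T h.choose (a i), hb _⟩ else 1) ?_ i
    · rw [dif_neg] at h4
      · exact one_ne_zero h4
      · rintro ⟨l, hl⟩
        exact Fin.succAbove_ne i l hl
    · rw [Fin.sum_univ_succAbove _ i]
      have e1 : (if h : ∃ l, i.succAbove l = i then -⟨T h.choose (a i), hb _⟩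
          else (1 : C)) = 1 := by
        rw [dif_neg]
        rintro ⟨l, hl⟩
        exact Fin.succAbove_ne i l hl
      rw [e1, one_smul]
      have e2 : ∀ l : Fin n, (if h : ∃ l', i.succAbove l' = i.succAbove l then
          -⟨T h.choose (a i), hb _⟩ else (1 : C)) • a (i.succAbove l)
          = -(T l (a i) * a (i.succAbove l)) := by
        intro l
        have hex : ∃ l', i.succAbove l' = i.succAbove l := ⟨l, rfl⟩
        rw [dif_pos hex]
        have hch : hex.choose = l := Fin.succAbove_right_injective hex.choose_spec
        rw [neg_smul, Subring.smul_def]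
        simp only [smul_eq_mul]
        rw [hch]
      rw [Finset.sum_congr rfl fun l _ => e2 l, Finset.sum_neg_distrib, ← h3, add_neg_cancel]

/-- families independent over the centralizer of a finite-dimensional subalgebra are small -/
theorem card_le {k : Type u} [Field k] [Algebra k D] (A : Subalgebra k D) [FiniteDimensional k A]
    (C : Subring D) (hC : ∀ c, (∀ s ∈ A, s * c = c * s) → c ∈ C) {n : ℕ} (x : Fin n → D)
    (hx : LinearIndependent C x) : n ≤ Module.finrank k A := by
  set r := Module.finrank k A with hr
  let s := Module.finBasis k A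
  have hop : ∀ f : D → D, Lop A.toSubring f → ∃ y : Fin r → D, ∀ a, f a = ∑ j, (s j : D) * a * y j := by
    intro f hf
    induction hf with
    | lr t y ht =>
      have h1 := s.sum_repr ⟨t, ht⟩
      refine ⟨fun j => algebraMap k D (s.repr ⟨t, ht⟩ j) * y, fun a => ?_⟩
      have h2 : t = ∑ j, algebraMap k D (s.repr ⟨t, ht⟩ j) * (s j : D) := by
        have := congrArg (Subtype.val) h1
        simp only [AddSubmonoidClass.coe_finsetSum, Algebra.smul_def] at this
        exact this.symm
      beta_reduce
      conv_lhs => rw [h2]
      rw [Finset.sum_mul, Finset.sum_mul]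
      refine Finset.sum_congr rfl fun j _ => ?_
      have hc : ∀ w : D, algebraMap k D (s.repr ⟨t, ht⟩ j) * w = w *
          algebraMap k D (s.repr ⟨t, ht⟩ j) := fun w => Algebra.commutes _ w
      rw [hc (s j : D), mul_assoc (s j : D), hc a, mul_assoc, mul_assoc, mul_assoc]
    | add f g _ _ h1 h2 =>
      obtain ⟨y1, h1⟩ := h1
      obtain ⟨y2, h2⟩ := h2
      refine ⟨fun j => y1 j + y2 j, fun a => ?_⟩
      beta_reduce
      rw [h1, h2, ← Finset.sum_add_distrib]
      exact Finset.sum_congr rfl fun j _ => (mul_add _ _ _).symm
  choose T hT hTx using dens2 (A := A.toSubring) C hC n x hx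
  choose y hy using fun l => hop (T l) (hT l)
  have hLI : LinearIndependent D (fun i : Fin n => fun j : Fin r => (s j : D) * x i) := by
    rw [Fintype.linearIndependent_iff]
    intro g hg l
    have h1 : ∀ j : Fin r, ∑ i, g i * ((s j : D) * x i) = 0 := by
      intro j
      have := congrFun hg j
      simpa only [Finset.sum_apply, Pi.smul_apply, smul_eq_mul, Pi.zero_apply] using this
    have h2 : ∑ i, g i * T l (x i) = g l := by
      simp only [hTx, mul_ite, mul_one, mul_zero]
      rw [Finset.sum_ite_eq']
      simp
    rw [← h2]
    simp only [hy, Finset.mul_sum]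
    rw [Finset.sum_comm]
    refine Finset.sum_eq_zero fun j _ => ?_
    have h3 := congrArg (· * y l j) (h1 j)
    simp only [Finset.sum_mul, zero_mul] at h3
    rw [← h3]
    exact Finset.sum_congr rfl fun i _ => by simp only [mul_assoc]
  have := hLI.fintype_card_le_finrank
  rwa [Fintype.card_fin, Module.finrank_fin_fun] at this

/-- if the centralizer of a finite-dimensional subalgebra is commutative, then `D` is
finite-dimensional over its center -/
theorem finite_of_comm {k : Type u} [Field k] [Algebra k D] (A : Subalgebra k D)
    [FiniteDimensional k A] (C : Subfield D) (hC : ∀ c, (∀ s ∈ A, s * c = c * s) → c ∈ C)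
    (hcomm : ∀ a ∈ C, ∀ b ∈ C, a * b = b * a) : Module.Finite (Subring.center D) D := by
  have hfinC : Module.Finite C D := by
    rw [← Module.rank_lt_aleph0_iff]
    refine lt_of_le_of_lt (rank_le (n := Module.finrank k A) ?_) (Cardinal.natCast_lt_aleph0)
    intro s hs
    have h1 := card_le A C.toSubring hC (fun i => ((s.equivFin.symm i : s) : D))
      (hs.comp _ s.equivFin.symm.injective)
    exact h1
  let e := Module.finBasis C D
  set N := Module.finrank C D with hN
  rw [← Module.rank_lt_aleph0_iff]
  refine lt_of_le_of_lt (rank_le (n := N * N) ?_) (Cardinal.natCast_lt_aleph0)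
  intro s hs
  set M := s.card with hM
  let d : Fin M → D := fun i => ((s.equivFin.symm i : s) : D)
  have hd : LinearIndependent (Subring.center D) d := hs.comp _ s.equivFin.symm.injective
  have hLI : LinearIndependent C (fun i : Fin M => fun jl : Fin N × Fin N =>
      e.repr (e jl.1 * d i) jl.2) := by
    rw [Fintype.linearIndependent_iff]
    intro g hg i
    have h1 : ∀ j l, ∑ i, g i * e.repr (e j * d i) l = 0 := by
      intro j l
      have := congrFun hg (j, l)
      simpa only [Finset.sum_apply, Pi.smul_apply, smul_eq_mul, Pi.zero_apply] using this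
    have h2 : ∀ j, ∑ i, (g i : D) * (e j * d i) = 0 := by
      intro j
      have h3 : ∀ i, (g i : D) * (e j * d i) = ∑ l, ((g i * e.repr (e j * d i) l : C) : D) * e l := by
        intro i
        have h4 := e.sum_repr (e j * d i)
        conv_lhs => rw [← h4]
        rw [Finset.mul_sum]
        refine Finset.sum_congr rfl fun l _ => ?_
        rw [show e.repr (e j * d i) l • e l = ((e.repr (e j * d i) l : C) : D) * e l from rfl,
          ← mul_assoc]
        rfl
      rw [Finset.sum_congr rfl fun i _ => h3 i, Finset.sum_comm]
      refine Finset.sum_eq_zero fun l _ => ?_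
      rw [← Finset.sum_mul]
      have h5 := congrArg (fun c : C => (c : D)) (h1 j l)
      simp only [AddSubmonoidClass.coe_finsetSum, ZeroMemClass.coe_zero] at h5
      rw [h5, zero_mul]
    have h6 : ∀ x : D, ∑ i, (g i : D) * x * d i = 0 := by
      intro x
      have h7 : x = ∑ j, ((e.repr x j : C) : D) * e j := (e.sum_repr x).symm
      have h8 : ∀ i, (g i : D) * x * d i = ∑ j, ((e.repr x j : C) : D) * ((g i : D) * (e j * d i)) := by
        intro i
        conv_lhs => rw [h7]
        rw [Finset.mul_sum, Finset.sum_mul]
        refine Finset.sum_congr rfl fun j _ => ?_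
        have h9 := hcomm _ (g i).2 _ (e.repr x j).2
        rw [← mul_assoc (g i : D), h9]
        simp only [mul_assoc]
      rw [Finset.sum_congr rfl fun i _ => h8 i, Finset.sum_comm]
      refine Finset.sum_eq_zero fun j _ => ?_
      rw [← Finset.mul_sum, h2 j, mul_zero]
    have h10 := artin_whaples d hd (fun i => (g i : D)) h6 i
    exact Subtype.ext h10
  have h11 := hLI.fintype_card_le_finrank
  rw [Fintype.card_fin, Module.finrank_pi, Fintype.card_prod, Fintype.card_fin] at h11
  exact h11

end dens2

end Vale.Agent.P199
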