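import Vale.Agent.P199.Gal
import Vale.Agent.P199.Conj

/-!
# P199: finite-dimensional noncommutative subalgebras
-/

set_option autoImplicit false

open Polynomial

namespace Vale.Agent.P199

universe u v

section ext

variable {k : Type u} [Field k] {D : Type v} [Ring D] [Algebra k D]

/-- adjoining an algebraic element normalising a finite-dimensional subalgebra -/
theorem ext_fd (E : Subalgebra k D) (hE : E.toSubmodule.FG) (w : D) (hw : IsIntegral k w)
    (hn : ∀ e ∈ E, ∃ e' ∈ E, w * e = e' * w) :
    ∃ E' : Subalgebra k D, E'.toSubmodule.FG ∧ E ≤ E' ∧ w ∈ E' ∧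
      ∀ F : Subalgebra k D, E ≤ F → w ∈ F → E' ≤ F := by
  set W := Algebra.adjoin k {w} with hW
  have hWfg : W.toSubmodule.FG := hw.fg_adjoin_singleton
  have hpow : ∀ n : ℕ, ∀ e ∈ E, ∃ e' ∈ E, w ^ n * e = e' * w ^ n := by
    intro n
    induction n with
    | zero => intro e he; exact ⟨e, he, by simp⟩
    | succ n ih =>
      intro e he
      obtain ⟨e1, he1, h1⟩ := hn e he
      obtain ⟨e2, he2, h2⟩ := ih e1 he1
      refine ⟨e2, he2, ?_⟩
      rw [pow_succ, mul_assoc, h1, ← mul_assoc, h2, mul_assoc]
  have hWE : W.toSubmodule * E.toSubmodule ≤ E.toSubmodule * W.toSubmodule := by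
    rw [Submodule.mul_le]
    intro m hm e he
    rw [Subalgebra.mem_toSubmodule, hW, Algebra.adjoin_singleton_eq_range_aeval] at hm
    obtain ⟨p, rfl⟩ := hm
    have h1 : (aeval w) p * e = ∑ i ∈ Finset.range (p.natDegree + 1), p.coeff i • (w ^ i * e) := by
      rw [aeval_eq_sum_range, Finset.sum_mul]
      exact Finset.sum_congr rfl fun i _ => smul_mul_assoc _ _ _
    change (aeval w) p * e ∈ _
    rw [h1]
    refine Submodule.sum_mem _ fun i _ => Submodule.smul_mem _ _ ?_
    obtain ⟨e', he', h2⟩ := hpow i e he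
    rw [h2]
    refine Submodule.mul_mem_mul he' ?_
    exact Subalgebra.pow_mem _ (Algebra.self_mem_adjoin_singleton k w) i
  have hmul : (E.toSubmodule * W.toSubmodule) * (E.toSubmodule * W.toSubmodule)
      ≤ E.toSubmodule * W.toSubmodule := by
    calc (E.toSubmodule * W.toSubmodule) * (E.toSubmodule * W.toSubmodule)
        = E.toSubmodule * (W.toSubmodule * E.toSubmodule) * W.toSubmodule := by
          simp only [mul_assoc]
      _ ≤ E.toSubmodule * (E.toSubmodule * W.toSubmodule) * W.toSubmodule :=
          mul_le_mul' (mul_le_mul' le_rfl hWE) le_rfl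
      _ = (E.toSubmodule * E.toSubmodule) * (W.toSubmodule * W.toSubmodule) := by
          simp only [mul_assoc]
      _ = E.toSubmodule * W.toSubmodule := by
          rw [(Subalgebra.isIdempotentElem_toSubmodule E).eq, (Subalgebra.isIdempotentElem_toSubmodule W).eq]
  have h1E : (1 : D) ∈ E.toSubmodule := E.one_mem
  have h1W : (1 : D) ∈ W.toSubmodule := W.one_mem
  refine ⟨(E.toSubmodule * W.toSubmodule).toSubalgebra ?_ ?_, ?_, ?_, ?_, ?_⟩
  · have := Submodule.mul_mem_mul h1E h1W
    rwa [one_mul] at this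
  · intro a b ha hb
    exact hmul (Submodule.mul_mem_mul ha hb)
  · rw [Submodule.toSubalgebra_toSubmodule]
    exact hE.mul hWfg
  · intro e he
    have := Submodule.mul_mem_mul (show e ∈ E.toSubmodule from he) h1W
    rw [mul_one] at this
    exact this
  · have := Submodule.mul_mem_mul h1E
      (show w ∈ W.toSubmodule from Algebra.self_mem_adjoin_singleton k w)
    rw [one_mul] at this
    exact this
  · intro F hEF hwF
    have hWF : W ≤ F := Algebra.adjoin_le (by simpa using hwF)
    intro a ha
    have ha' : a ∈ E.toSubmodule * W.toSubmodule := ha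
    have : E.toSubmodule * W.toSubmodule ≤ F.toSubmodule := by
      rw [Submodule.mul_le]
      intro m hm n hn
      exact F.mul_mem (hEF hm) (hWF hn)
    exact this ha'

theorem center_fd (T : Finset D) (hT : ∀ t ∈ T, t ∈ Subalgebra.center k D ∧ IsIntegral k t) :
    ∃ E : Subalgebra k D, E.toSubmodule.FG ∧ E ≤ Subalgebra.center k D ∧ ∀ t ∈ T, t ∈ E := by
  classical
  induction T using Finset.induction_on with
  | empty =>
    refine ⟨⊥, ?_, bot_le, by simp⟩
    have : (⊥ : Subalgebra k D).toSubmodule = Submodule.span k {1} := by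
      rw [Algebra.toSubmodule_bot, Submodule.one_eq_span]
    rw [this]
    exact Submodule.fg_span (Set.finite_singleton _)
  | insert t T ht ih =>
    obtain ⟨E, hE, hEc, hET⟩ := ih fun s hs => hT s (Finset.mem_insert_of_mem hs)
    obtain ⟨htc, hti⟩ := hT t (Finset.mem_insert_self t T)
    obtain ⟨E', h1, h2, h3, h4⟩ := ext_fd E hE t hti fun e he =>
      ⟨e, he, (Subalgebra.mem_center_iff.mp (hEc he) t)⟩
    refine ⟨E', h1, h4 _ hEc htc, ?_⟩
    intro s hs
    rw [Finset.mem_insert] at hs
    rcases hs with rfl | hs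
    · exact h3
    · exact h2 (hET s hs)

end ext

/-- a finite-dimensional noncommutative subalgebra -/
theorem exists_pair {k : Type u} [Field k] (hN : NilGal k) {D : Type v} [DivisionRing D]
    [Algebra k D] [Algebra.IsAlgebraic k D] (hnc : Subring.center D ≠ ⊤) :
    ∃ B : Subalgebra k D, B.toSubmodule.FG ∧ ∃ a ∈ B, ∃ b ∈ B, a * b ≠ b * a := by
  classical
  have hcen : ∀ r : k, algebraMap k D r ∈ Subring.center D := fun r => by
    rw [Subring.mem_center_iff]; intro g; exact (Algebra.commutes r g).symm
  let _ : Algebra k (Subring.center D) :=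
    RingHom.toAlgebra ((algebraMap k D).codRestrict (Subring.center D) hcen)
  have : IsScalarTower k (Subring.center D) D := IsScalarTower.of_algebraMap_eq fun _ => rfl
  have : Algebra.IsAlgebraic (Subring.center D) D := Algebra.IsAlgebraic.tower_top (K := k) _
  obtain ⟨x, hxZ, hx⟩ := JacobsonNoether.exists_separable_and_not_isCentral D hnc
  obtain ⟨q, hq⟩ := ExpChar.exists k
  have hxi : IsIntegral k x := (Algebra.IsAlgebraic.isAlgebraic x).isIntegral
  obtain ⟨g, hgs, m, hg⟩ := Irreducible.hasSeparableContraction q (minpoly.irreducible hxi)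
  set x' := x ^ q ^ m with hx'
  have hx's : IsSeparable k x' := by
    refine Polynomial.Separable.of_dvd hgs (minpoly.dvd _ _ ?_)
    rw [hx', ← expand_aeval, hg, minpoly.aeval]
  have hx'Z : x' ∉ Set.range (algebraMap (Subring.center D) D) := by
    rintro ⟨z, hz⟩
    have : ExpChar (Subring.center D) q :=
      expChar_of_injective_algebraMap (algebraMap k (Subring.center D)).injective q
    have h1 : (minpoly (Subring.center D) x).natSepDegree = 1 :=
      (minpoly.natSepDegree_eq_one_iff_pow_mem q).2 ⟨m, z, hz⟩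
    have h2 : (minpoly (Subring.center D) x).natDegree = 1 := by
      rw [← h1]
      exact (Polynomial.Separable.natSepDegree_eq_natDegree hx).symm
    rw [minpoly.natDegree_eq_one_iff] at h2
    obtain ⟨z', hz'⟩ := h2
    apply hxZ
    rw [← hz']
    exact z'.2
  obtain ⟨s, hs1, hs2⟩ := second_root hN (Z := Subring.center D) (A := D) x' hx's hx'Z
  set y := aeval x' s with hy
  have hx'i : IsIntegral k x' := hx's.isIntegral
  obtain ⟨w, hw0, hw⟩ := conj x' y hx'i.tower_top hs1
  have hwi : IsIntegral k w := (Algebra.IsAlgebraic.isAlgebraic w).isIntegral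
  -- the coefficients
  obtain ⟨E, hE, hEc, hET⟩ := center_fd (k := k) (D := D)
    (s.support.image fun i => ((s.coeff i : Subring.center D) : D)) (by
      intro t ht
      rw [Finset.mem_image] at ht
      obtain ⟨i, _, rfl⟩ := ht
      refine ⟨?_, (Algebra.IsAlgebraic.isAlgebraic _).isIntegral⟩
      rw [Subalgebra.mem_center_iff]
      intro b
      exact (Subring.mem_center_iff.mp (s.coeff i).2 b))
  obtain ⟨E1, hE1, hEE1, hxE1, hmin⟩ := ext_fd E hE x' hx'i fun e he =>
    ⟨e, he, Subalgebra.mem_center_iff.mp (hEc he) x'⟩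
  have hyE1 : y ∈ E1 := by
    rw [hy, aeval_eq_sum_range]
    refine Subalgebra.sum_mem _ fun i _ => ?_
    rw [Algebra.smul_def]
    refine E1.mul_mem ?_ (E1.pow_mem hxE1 i)
    by_cases hi : i ∈ s.support
    · exact hEE1 (hET _ (Finset.mem_image_of_mem _ hi))
    · rw [Polynomial.notMem_support_iff.mp hi, map_zero]
      exact E1.zero_mem
  -- conjugation by `w` preserves `E1`
  let F : Subalgebra k D :=
    { carrier := {e | w * e * w⁻¹ ∈ E1}
      mul_mem' := by
        intro a b ha hb
        have : w * (a * b) * w⁻¹ = (w * a * w⁻¹) * (w * b * w⁻¹) := by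
          simp only [mul_assoc, inv_mul_cancel_left₀ hw0]
        rw [Set.mem_ofPred_eq, this]
        exact E1.mul_mem ha hb
      add_mem' := by
        intro a b ha hb
        have : w * (a + b) * w⁻¹ = (w * a * w⁻¹) + (w * b * w⁻¹) := by
          rw [mul_add, add_mul]
        rw [Set.mem_ofPred_eq, this]
        exact E1.add_mem ha hb
      algebraMap_mem' := by
        intro r
        have : w * algebraMap k D r * w⁻¹ = algebraMap k D r := by
          rw [← Algebra.commutes, mul_assoc, mul_inv_cancel₀ hw0, mul_one]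
        rw [Set.mem_ofPred_eq, this]
        exact E1.algebraMap_mem r }
  have hE1F : E1 ≤ F := by
    refine hmin F ?_ ?_
    · intro e he
      have : w * e * w⁻¹ = e := by
        rw [Subalgebra.mem_center_iff.mp (hEc he) w, mul_assoc, mul_inv_cancel₀ hw0, mul_one]
      show w * e * w⁻¹ ∈ E1
      rw [this]
      exact hEE1 he
    · show w * x' * w⁻¹ ∈ E1
      rw [← hw, mul_assoc, mul_inv_cancel₀ hw0, mul_one]
      exact hyE1
  obtain ⟨B, hB, hE1B, hwB, _⟩ := ext_fd E1 hE1 w hwi fun e he =>
    ⟨w * e * w⁻¹, hE1F he, by rw [mul_assoc, inv_mul_cancel₀ hw0, mul_one]⟩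
  refine ⟨B, hB, w, hwB, x', hE1B hxE1, ?_⟩
  intro h
  apply hs2
  rw [← hw] at h
  exact mul_right_cancel₀ hw0 h

end Vale.Agent.P199
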