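import Mathlib

/-!
# P199: pronilpotent Galois groups give conjugates inside simple extensions
-/

set_option autoImplicit false

open Polynomial

namespace Vale.Agent.P199

universe u v

/-- every finite Galois extension has nilpotent Galois group -/
def NilGal (k : Type u) [Field k] : Prop :=
  ∀ (L : Type u) [Field L] [Algebra k L] [FiniteDimensional k L] [IsGalois k L],
    Group.IsNilpotent (L ≃ₐ[k] L)

theorem gal_nilp {k : Type u} [Field k] (hN : NilGal k) {Z : Type v} [Field Z] [Algebra k Z]
    (f : k[X]) (hf : f.Separable) :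
    Group.IsNilpotent ((f.map (algebraMap k Z)).SplittingField ≃ₐ[Z]
      (f.map (algebraMap k Z)).SplittingField) := by
  set f' := f.map (algebraMap k Z) with hf'
  let N := f.SplittingField
  let L := f'.SplittingField
  have hs : Splits (f.map (algebraMap k L)) := by
    rw [IsScalarTower.algebraMap_eq k Z L, ← Polynomial.map_map]
    exact SplittingField.splits f'
  let φ : N →ₐ[k] L := SplittingField.lift f hs
  let _ : Algebra N L := φ.toRingHom.toAlgebra
  have : IsScalarTower k N L := IsScalarTower.of_algebraMap_eq fun x => (φ.commutes x).symm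
  have : IsGalois k N := IsGalois.of_separable_splitting_field hf
  have := hN N
  let Ψ := IntermediateField.restrictRestrictAlgEquivMapHom k N Z L
  have hinj : Function.Injective Ψ := by
    refine (injective_iff_map_eq_one Ψ).2 fun σ hσ => ?_
    have h1 : ∀ n : N, σ (φ n) = φ n := by
      intro n
      have h2 := AlgEquiv.restrictNormal_commutes (MulSemiringAction.toAlgAut Gal(L/Z) k L σ) N n
      have h3 : (MulSemiringAction.toAlgAut Gal(L/Z) k L σ).restrictNormal N = 1 := hσ
      rw [h3] at h2
      exact h2.symm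
    have h4 : (σ : L →ₐ[Z] L) = AlgHom.id Z L := by
      refine AlgHom.ext_of_adjoin_eq_top (SplittingField.adjoin_rootSet f') ?_
      intro r hr
      have hr' : r ∈ f.rootSet L := by
        rw [Polynomial.mem_rootSet] at hr ⊢
        refine ⟨hf.ne_zero, ?_⟩
        have hr2 := hr.2
        have e : aeval r f' = aeval r f := aeval_map_algebraMap Z r f
        rw [e] at hr2
        exact hr2
      rw [← (SplittingField.splits f).image_rootSet φ] at hr'
      obtain ⟨n, _, rfl⟩ := hr'
      exact h1 n
    ext x
    exact DFunLike.congr_fun h4 x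
  refine Subgroup.isNilpotent_of_ker_le_center Ψ ?_
  rw [(MonoidHom.ker_eq_bot_iff Ψ).2 hinj]
  exact bot_le

/-- a second root of the minimal polynomial which is a polynomial in the first one -/
theorem second_root {k : Type u} [Field k] (hN : NilGal k) {Z : Type v} [Field Z] [Algebra k Z]
    {A : Type v} [Ring A] [IsDomain A] [Algebra k A] [Algebra Z A] [IsScalarTower k Z A] (x : A)
    (hx : IsSeparable k x) (hxZ : x ∉ Set.range (algebraMap Z A)) :
    ∃ q : Z[X], aeval (aeval x q) (minpoly Z x) = 0 ∧ aeval x q ≠ x := by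
  set f := minpoly k x with hf
  have hfs : f.Separable := hx
  have hxi : IsIntegral k x := hx.isIntegral
  have hxZi : IsIntegral Z x := hxi.tower_top
  set f' := f.map (algebraMap k Z) with hf'
  let L := f'.SplittingField
  have : IsGalois Z L := IsGalois.of_separable_splitting_field (p := f') hfs.map
  have hnil : Group.IsNilpotent (L ≃ₐ[Z] L) := gal_nilp hN f hfs
  set p := minpoly Z x with hp
  have hdvd : p ∣ f' := minpoly.dvd _ _ (by rw [hf', aeval_map_algebraMap]; exact minpoly.aeval k x)
  have hpm : p.Monic := minpoly.monic hxZi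
  have hpirr : Irreducible p := minpoly.irreducible hxZi
  have hf'0 : f'.map (algebraMap Z L) ≠ 0 := by
    rw [Polynomial.map_ne_zero_iff (algebraMap Z L).injective]
    exact hfs.map.ne_zero
  have hps : Splits (p.map (algebraMap Z L)) :=
    (SplittingField.splits f').of_dvd hf'0 (Polynomial.map_dvd _ hdvd)
  obtain ⟨ρ, hρ⟩ : ∃ ρ : L, aeval ρ p = 0 := by
    have hdeg : (p.map (algebraMap Z L)).degree ≠ 0 := by
      rw [degree_map]; exact (degree_pos_of_irreducible hpirr).ne'
    obtain ⟨ρ, hρ⟩ := hps.exists_eval_eq_zero hdeg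
    exact ⟨ρ, by rw [aeval_def, eval₂_eq_eval_map]; exact hρ⟩
  have hpρ : minpoly Z ρ = p := (minpoly.eq_of_irreducible_of_monic hpirr hρ hpm).symm
  let H : Subgroup (L ≃ₐ[Z] L) := (IntermediateField.adjoin Z {ρ}).fixingSubgroup
  have hH : H < ⊤ := by
    rw [lt_top_iff_ne_top]
    intro h
    have h1 : IntermediateField.adjoin Z {ρ} = ⊥ := by
      have := IsGalois.fixedField_fixingSubgroup (IntermediateField.adjoin Z {ρ})
      rw [show (IntermediateField.adjoin Z {ρ}).fixingSubgroup = ⊤ from h] at this
      rw [← this]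
      exact (IsGalois.tfae.out 0 1).mp (inferInstance : IsGalois Z L)
    have h2 : ρ ∈ (⊥ : IntermediateField Z L) := by
      rw [← h1]; exact IntermediateField.mem_adjoin_simple_self Z ρ
    rw [IntermediateField.mem_bot] at h2
    obtain ⟨z, hz⟩ := h2
    have h3 : p = X - C z := by
      rw [← hpρ, ← hz]; exact minpoly.eq_X_sub_C L z
    apply hxZ
    refine ⟨z, ?_⟩
    have h4 : aeval x p = 0 := minpoly.aeval Z x
    rw [h3, map_sub, aeval_X, aeval_C, sub_eq_zero] at h4
    exact h4.symm
  have hlt := Group.normalizerCondition_of_isNilpotent H hH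
  obtain ⟨g, hg, hgH⟩ := Set.exists_of_ssubset hlt
  have hgρ : g ρ ≠ ρ := by
    intro h
    apply hgH
    show g ∈ (IntermediateField.adjoin Z {ρ}).fixingSubgroup
    rw [IntermediateField.mem_fixingSubgroup_iff]
    intro y hy
    have : IntermediateField.adjoin Z {ρ} ≤ IntermediateField.fixedField (Subgroup.zpowers g) := by
      rw [IntermediateField.adjoin_simple_le_iff, IntermediateField.mem_fixedField_iff]
      intro t ht
      have : t ∈ MulAction.stabilizer (L ≃ₐ[Z] L) ρ := by
        have h5 : Subgroup.zpowers g ≤ MulAction.stabilizer (L ≃ₐ[Z] L) ρ := by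
          rw [Subgroup.zpowers_le]
          exact h
        exact h5 ht
      exact this
    have h6 := this hy
    rw [IntermediateField.mem_fixedField_iff] at h6
    exact h6 g (Subgroup.mem_zpowers g)
  have hfix : g ρ ∈ IntermediateField.adjoin Z {ρ} := by
    rw [← IsGalois.fixedField_fixingSubgroup (IntermediateField.adjoin Z {ρ}),
      IntermediateField.mem_fixedField_iff]
    intro h hh
    have h7 : g⁻¹ * h * g ∈ H := by
      have := (Subgroup.mem_normalizer_iff''.mp hg h).mp hh
      exact this
    have h8 : (g⁻¹ * h * g) ρ = ρ := by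
      have := (IntermediateField.mem_fixingSubgroup_iff _ _).mp h7 ρ
        (IntermediateField.mem_adjoin_simple_self Z ρ)
      exact this
    have h9 : g ((g⁻¹ * h * g) ρ) = g ρ := by rw [h8]
    have h10 : g ((g⁻¹ * h * g) ρ) = h (g ρ) := by
      have : g * (g⁻¹ * h * g) = h * g := by group
      calc g ((g⁻¹ * h * g) ρ) = (g * (g⁻¹ * h * g)) ρ := rfl
        _ = (h * g) ρ := by rw [this]
        _ = h (g ρ) := rfl
    rw [h10] at h9
    exact h9
  have hρi : IsIntegral Z ρ := ⟨p, hpm, by rw [← aeval_def]; exact hρ⟩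
  have hmem : g ρ ∈ Algebra.adjoin Z {ρ} := by
    rw [← IntermediateField.adjoin_simple_toSubalgebra_of_isAlgebraic hρi.isAlgebraic]
    exact hfix
  rw [Algebra.adjoin_singleton_eq_range_aeval] at hmem
  obtain ⟨q, hq⟩ := hmem
  refine ⟨q, ?_, ?_⟩
  · have h1 : p ∣ p.comp q := by
      rw [← hpρ]
      refine minpoly.dvd _ _ ?_
      rw [aeval_comp, hpρ]
      have hq' : aeval ρ q = g ρ := hq
      rw [hq']
      have h3 : aeval (g ρ) p = g (aeval ρ p) := Polynomial.aeval_algHom_apply (g : L →ₐ[Z] L) ρ p
      rw [h3, hρ, map_zero]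
    obtain ⟨r, hr⟩ := h1
    have h2 : aeval x (p.comp q) = 0 := by
      rw [hr, map_mul, hp, minpoly.aeval, zero_mul]
    rw [aeval_comp] at h2
    exact h2
  · intro h
    apply hgρ
    have h1 : p ∣ q - X := minpoly.dvd _ _ (by rw [map_sub, aeval_X, h, sub_self])
    obtain ⟨r, hr⟩ := h1
    have h2 : aeval ρ (q - X) = 0 := by rw [hr, map_mul, hρ, zero_mul]
    rw [map_sub, aeval_X, sub_eq_zero] at h2
    have hq' : aeval ρ q = g ρ := hq
    rw [← hq', h2]

end Vale.Agent.P199
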