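import Vale.Agent.P199.Dens2

/-!
# P199: bounded index
-/

set_option autoImplicit false

open Finset

namespace Vale.Agent.P199

universe u v

section general

variable {k : Type u} [Field k]

theorem algebraMap_mem_center {A : Type v} [Ring A] [Algebra k A] (r : k) :
    algebraMap k A r ∈ Subring.center A := by
  rw [Subring.mem_center_iff]; intro g; exact (Algebra.commutes r g).symm

theorem finite_center (A : Type v) [DivisionRing A] [Algebra k A] [FiniteDimensional k A] :
    Module.Finite (Subring.center A) A := by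
  let _ : Algebra k (Subring.center A) :=
    RingHom.toAlgebra ((algebraMap k A).codRestrict (Subring.center A) algebraMap_mem_center)
  have : IsScalarTower k (Subring.center A) A := IsScalarTower.of_algebraMap_eq fun _ => rfl
  exact Module.Finite.of_restrictScalars_finite k (Subring.center A) A

theorem card_le_of_bound {m : ℕ}
    (hB : ∀ (A : Type v) [DivisionRing A] [Algebra k A] [FiniteDimensional k A],
      Module.finrank (Subring.center A) A ≤ m)
    (A : Type v) [DivisionRing A] [Algebra k A] [FiniteDimensional k A] {r : ℕ} (a : Fin r → A)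
    (ha : LinearIndependent (Subring.center A) a) : r ≤ m := by
  have := finite_center (k := k) A
  have h := ha.fintype_card_le_finrank
  rw [Fintype.card_fin] at h
  exact h.trans (hB A)

/-- product of two commuting finite-dimensional subalgebras -/
theorem prod_fd {D : Type v} [Ring D] [Algebra k D] (A B : Subalgebra k D)
    (hA : A.toSubmodule.FG) (hB : B.toSubmodule.FG) (hAB : ∀ a ∈ A, ∀ b ∈ B, a * b = b * a) :
    ∃ E : Subalgebra k D, E.toSubmodule.FG ∧ A ≤ E ∧ B ≤ E := by
  have hWE : B.toSubmodule * A.toSubmodule ≤ A.toSubmodule * B.toSubmodule := by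
    rw [Submodule.mul_le]
    intro b hb a ha
    rw [← hAB a ha b hb]
    exact Submodule.mul_mem_mul ha hb
  have hmul : (A.toSubmodule * B.toSubmodule) * (A.toSubmodule * B.toSubmodule)
      ≤ A.toSubmodule * B.toSubmodule := by
    calc (A.toSubmodule * B.toSubmodule) * (A.toSubmodule * B.toSubmodule)
        = A.toSubmodule * (B.toSubmodule * A.toSubmodule) * B.toSubmodule := by
          simp only [mul_assoc]
      _ ≤ A.toSubmodule * (A.toSubmodule * B.toSubmodule) * B.toSubmodule :=
          mul_le_mul' (mul_le_mul' le_rfl hWE) le_rfl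
      _ = (A.toSubmodule * A.toSubmodule) * (B.toSubmodule * B.toSubmodule) := by
          simp only [mul_assoc]
      _ = A.toSubmodule * B.toSubmodule := by
          rw [(Subalgebra.isIdempotentElem_toSubmodule A).eq,
            (Subalgebra.isIdempotentElem_toSubmodule B).eq]
  have h1A : (1 : D) ∈ A.toSubmodule := A.one_mem
  have h1B : (1 : D) ∈ B.toSubmodule := B.one_mem
  refine ⟨(A.toSubmodule * B.toSubmodule).toSubalgebra ?_ ?_, ?_, ?_, ?_⟩
  · have := Submodule.mul_mem_mul h1A h1B
    rwa [one_mul] at this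
  · intro a b ha hb
    exact hmul (Submodule.mul_mem_mul ha hb)
  · rw [Submodule.toSubalgebra_toSubmodule]
    exact hA.mul hB
  · intro e he
    have := Submodule.mul_mem_mul (show e ∈ A.toSubmodule from he) h1B
    rw [mul_one] at this
    exact this
  · intro e he
    have := Submodule.mul_mem_mul h1A (show e ∈ B.toSubmodule from he)
    rw [one_mul] at this
    exact this

end general

section fd

variable {k : Type u} [Field k] {D : Type v} [DivisionRing D] [Algebra k D]

/-- the division ring structure of a finite-dimensional subalgebra -/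
noncomputable abbrev divA (A : Subalgebra k D) [FiniteDimensional k A] : DivisionRing A :=
  divisionRingOfFiniteDimensional k A

/-- dual operators, extended to `D` -/
theorem dual_ops (A : Subalgebra k D) [FiniteDimensional k A] {r : ℕ} (a : Fin r → A)
    (ha : LinearIndependent (Subring.center A) a) (i : Fin r) :
    ∃ F : D → D, (∀ x y, F (x + y) = F x + F y) ∧ (∀ j, F (a j) = if j = i then 1 else 0) ∧
      (∀ l d, (∀ s ∈ A, s * l = l * s) → F (l * d) = l * F d) := by
  let _ : DivisionRing A := divA A
  obtain ⟨f, hf, hfa⟩ := density r a ha i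
  have key : ∀ f : A → A, Mop f → ∃ F : D → D, (∀ x y, F (x + y) = F x + F y) ∧
      (∀ x : A, F x = (f x : D)) ∧ (∀ l d, (∀ s ∈ A, s * l = l * s) → F (l * d) = l * F d) := by
    intro f hf
    induction hf with
    | lr y w =>
      refine ⟨fun d => (y : D) * d * (w : D), fun x z => by simp only [mul_add, add_mul],
        fun x => rfl, fun l d hl => ?_⟩
      have := hl y y.2
      simp only
      rw [← mul_assoc, this]
      simp only [mul_assoc]
    | add f g _ _ h1 h2 =>
      obtain ⟨F, hF1, hF2, hF3⟩ := h1
      obtain ⟨G, hG1, hG2, hG3⟩ := h2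
      refine ⟨fun d => F d + G d, fun x y => by simp only [hF1, hG1]; abel, fun x => ?_,
        fun l d hl => ?_⟩
      · simp only [hF2, hG2]; rfl
      · simp only [hF3 l d hl, hG3 l d hl, mul_add]
  obtain ⟨F, hF1, hF2, hF3⟩ := key f hf
  refine ⟨F, hF1, fun j => ?_, hF3⟩
  rw [hF2, hfa]
  split_ifs <;> rfl

theorem F_sum {F : D → D} (hF : ∀ x y, F (x + y) = F x + F y) {ι : Type*} (s : Finset ι)
    (g : ι → D) : F (∑ i ∈ s, g i) = ∑ i ∈ s, F (g i) := by
  classical
  have h0 : F 0 = 0 := by
    have := hF 0 0
    rw [add_zero] at this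
    exact left_eq_add.mp this
  induction s using Finset.induction_on with
  | empty => simpa using h0
  | insert i s hi ih => rw [sum_insert hi, sum_insert hi, hF, ih]

/-- enlarging the index: `B` noncommutative in the centralizer of `A` -/
theorem enlarge (A B : Subalgebra k D) (hA : A.toSubmodule.FG) (hB : B.toSubmodule.FG)
    (hAB : ∀ a ∈ A, ∀ b ∈ B, a * b = b * a) (hBn : ∃ a ∈ B, ∃ b ∈ B, a * b ≠ b * a)
    {r : ℕ} (a : Fin r → A) (ha : LinearIndependent (Subring.center A) a) :
    ∃ E : Subalgebra k D, E.toSubmodule.FG ∧ ∃ a' : Fin (r + 1) → E,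
      LinearIndependent (Subring.center E) a' := by
  obtain ⟨E, hE, hAE, hBE⟩ := prod_fd A B hA hB hAB
  have hfA : FiniteDimensional k A := (Submodule.fg_iff_finiteDimensional _).mp hA
  have hfE : FiniteDimensional k E := (Submodule.fg_iff_finiteDimensional _).mp hE
  refine ⟨E, hE, ?_⟩
  let _ : DivisionRing E := divA E
  choose F hF1 hF2 hF3 using dual_ops A a ha
  have hcomm : ∀ (l : Subring.center E), ∀ s ∈ A, s * ((l : E) : D) = ((l : E) : D) * s := by
    intro l s hs
    have := Subring.mem_center_iff.mp l.2 ⟨s, hAE hs⟩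
    exact congrArg Subtype.val this
  -- evaluating
  have heval : ∀ (g : Fin r → Subring.center E) (j : Fin r),
      F j (∑ i, ((g i : E) : D) * (a i : D)) = ((g j : E) : D) := by
    intro g j
    rw [F_sum (hF1 j)]
    have : ∀ i, F j (((g i : E) : D) * (a i : D)) = if i = j then ((g i : E) : D) else 0 := by
      intro i
      rw [hF3 j _ _ (hcomm (g i)), hF2, mul_ite, mul_one, mul_zero]
    rw [Finset.sum_congr rfl fun i _ => this i, Finset.sum_ite_eq']
    simp
  let v : Fin r → E := fun i => ⟨(a i : D), hAE (a i).2⟩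
  have hv : LinearIndependent (Subring.center E) v := by
    rw [Fintype.linearIndependent_iff]
    intro g hg j
    have h1 : ∑ i, ((g i : E) : D) * (a i : D) = 0 := by
      have := congrArg Subtype.val hg
      simp only [AddSubmonoidClass.coe_finsetSum] at this
      exact this
    have h2 := heval g j
    rw [h1] at h2
    have h0 : F j 0 = 0 := by simpa using F_sum (hF1 j) (∅ : Finset (Fin r)) (fun _ => 0)
    rw [h0] at h2
    exact Subtype.ext (Subtype.ext h2.symm)
  by_contra hcon
  push Not at hcon
  have hspan : ∀ b ∈ B, ∃ l : Fin r → Subring.center E, b = ∑ i, ((l i : E) : D) * (a i : D) := by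
    intro b hb
    have h1 := hcon (Fin.cons ⟨b, hBE hb⟩ v)
    rw [linearIndependent_finCons] at h1
    have h2 : (⟨b, hBE hb⟩ : E) ∈ Submodule.span (Subring.center E) (Set.range v) := by
      by_contra h; exact h1 ⟨hv, h⟩
    rw [Submodule.mem_span_range_iff_exists_fun] at h2
    obtain ⟨l, hl⟩ := h2
    refine ⟨l, ?_⟩
    have := congrArg Subtype.val hl
    simp only [AddSubmonoidClass.coe_finsetSum] at this
    exact this.symm
  have hz : ∀ b ∈ B, ∀ j, ∃ l : Subring.center E, b * F j 1 = ((l : E) : D) := by
    intro b hb j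
    obtain ⟨l, hl⟩ := hspan b hb
    refine ⟨l j, ?_⟩
    rw [← heval l j, ← hl, ← hF3 j b 1 fun s hs => hAB s hs b hb, mul_one]
  obtain ⟨j, hj⟩ : ∃ j, F j 1 ≠ 0 := by
    by_contra h
    push Not at h
    obtain ⟨l, hl⟩ := hspan 1 B.one_mem
    have h1 : ∀ i, ((l i : E) : D) = 0 := fun i => by
      rw [← heval l i, ← hl, h i]
    rw [Finset.sum_eq_zero fun i _ => by rw [h1 i, zero_mul]] at hl
    exact one_ne_zero hl
  have hz1 : ∀ e ∈ E, e * F j 1 = F j 1 * e := by
    intro e he
    obtain ⟨l, hl⟩ := hz 1 B.one_mem j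
    rw [one_mul] at hl
    rw [hl]
    exact congrArg Subtype.val (Subring.mem_center_iff.mp l.2 ⟨e, he⟩)
  obtain ⟨b1, hb1, b2, hb2, hne⟩ := hBn
  apply hne
  obtain ⟨l, hl⟩ := hz b1 hb1 j
  have h1 : b2 * (b1 * F j 1) = (b1 * F j 1) * b2 := by
    rw [hl]
    exact congrArg Subtype.val (Subring.mem_center_iff.mp l.2 ⟨b2, hBE hb2⟩)
  have h2 : b1 * b2 * F j 1 = b2 * b1 * F j 1 := by
    rw [mul_assoc, hz1 b2 (hBE hb2), ← mul_assoc, ← h1, mul_assoc]
  exact mul_right_cancel₀ hj h2

end fd

end Vale.Agent.P199
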