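import Vale.Agent.P199.Index

/-!
# P199: division rings algebraic over a field with pronilpotent Galois group and bounded indices
-/

set_option autoImplicit false

open Finset

namespace Vale.Agent.P199

universe u v

theorem exists_max (P : ℕ → Prop) (m : ℕ) (h0 : P 0) (hb : ∀ r, P r → r ≤ m) :
    ∃ r, P r ∧ ∀ r', P r' → r' ≤ r := by
  classical
  exact ⟨Nat.findGreatest P m, Nat.findGreatest_spec (Nat.zero_le m) h0,
    fun r' h' => Nat.le_findGreatest (hb r' h') h'⟩

theorem bot_fg {k : Type u} [Field k] {D : Type v} [Ring D] [Algebra k D] :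
    (⊥ : Subalgebra k D).toSubmodule.FG := by
  have : (⊥ : Subalgebra k D).toSubmodule = Submodule.span k {1} := by
    rw [Algebra.toSubmodule_bot, Submodule.one_eq_span]
  rw [this]
  exact Submodule.fg_span (Set.finite_singleton _)

variable {k : Type u} [Field k] {D : Type v} [DivisionRing D] [Algebra k D]

theorem inv_mem_centralizer (A : Subalgebra k D) {x : D}
    (hx : x ∈ Subalgebra.centralizer k (A : Set D)) :
    x⁻¹ ∈ Subalgebra.centralizer k (A : Set D) := by
  rw [Subalgebra.mem_centralizer_iff] at hx ⊢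
  intro g hg
  by_cases h0 : x = 0
  · rw [h0]; simp
  · have h1 := hx g hg
    calc g * x⁻¹ = x⁻¹ * (x * g) * x⁻¹ := by rw [← mul_assoc, inv_mul_cancel₀ h0, one_mul]
      _ = x⁻¹ * (g * x) * x⁻¹ := by rw [h1]
      _ = x⁻¹ * g := by rw [mul_assoc, mul_assoc, mul_inv_cancel₀ h0, mul_one]

theorem card_le_sub (A : Subalgebra k D) [FiniteDimensional k A] {r : ℕ} (a : Fin r → A)
    (ha : LinearIndependent (Subring.center A) a) : r ≤ Module.finrank (Subring.center A) A := by
  let _ : DivisionRing A := divA A
  have := finite_center (k := k) A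
  have h := ha.fintype_card_le_finrank
  rw [Fintype.card_fin] at h
  exact h

theorem main_finite [Algebra.IsAlgebraic k D] (hN : NilGal k) {m : ℕ}
    (hB : ∀ A : Subalgebra k D, FiniteDimensional k A →
      Module.finrank (Subring.center A) A ≤ m) : Module.Finite (Subring.center D) D := by
  obtain ⟨r, ⟨A, hA, a, ha⟩, hmax⟩ := exists_max (fun r => ∃ A : Subalgebra k D,
    A.toSubmodule.FG ∧ ∃ a : Fin r → A, LinearIndependent (Subring.center A) a) m
    ⟨⊥, bot_fg, Fin.elim0, linearIndependent_empty_type⟩ (by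
      rintro r ⟨A, hA, a, ha⟩
      have hfA : FiniteDimensional k A := (Submodule.fg_iff_finiteDimensional _).mp hA
      exact (card_le_sub A a ha).trans (hB A hfA))
  have hfA : FiniteDimensional k A := (Submodule.fg_iff_finiteDimensional _).mp hA
  set C' := Subalgebra.centralizer k (A : Set D) with hC'
  have hcomm : ∀ x ∈ C', ∀ y ∈ C', x * y = y * x := by
    by_contra hcon
    push Not at hcon
    obtain ⟨c1, hc1, c2, hc2, hne⟩ := hcon
    let _ : DivisionRing C' := DivisionRing.ofIsUnitOrEqZero (by
      intro x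
      by_cases hx : x = 0
      · exact Or.inr hx
      · left
        have hx' : (x : D) ≠ 0 := fun h => hx (Subtype.ext h)
        exact ⟨⟨x, ⟨(x : D)⁻¹, inv_mem_centralizer A x.2⟩, Subtype.ext (mul_inv_cancel₀ hx'),
          Subtype.ext (inv_mul_cancel₀ hx')⟩, rfl⟩)
    have halg : Algebra.IsAlgebraic k C' :=
      Algebra.IsAlgebraic.of_injective C'.val Subtype.val_injective
    have hnc : Subring.center C' ≠ ⊤ := by
      intro h
      have : (⟨c1, hc1⟩ : C') ∈ Subring.center C' := by rw [h]; exact Subring.mem_top _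
      exact hne (congrArg Subtype.val (Subring.mem_center_iff.mp this ⟨c2, hc2⟩)).symm
    obtain ⟨B', hB'fg, x, hx, y, hy, hxy⟩ := exists_pair hN hnc
    set B := B'.map C'.val with hBdef
    have hBfg : B.toSubmodule.FG := by
      rw [hBdef, Subalgebra.map_toSubmodule]
      exact hB'fg.map _
    have hBC : ∀ b ∈ B, b ∈ C' := by
      rintro _ ⟨b, _, rfl⟩
      exact b.2
    obtain ⟨E, hE, a', ha'⟩ := enlarge A B hA hBfg (fun s hs b hb =>
      (Subalgebra.mem_centralizer_iff k).mp (hBC b hb) s hs) ⟨x, ⟨x, hx, rfl⟩, y, ⟨y, hy, rfl⟩,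
      fun h => hxy (Subtype.ext h)⟩ a ha
    have := hmax (r + 1) ⟨E, hE, a', ha'⟩
    omega
  let C : Subfield D :=
    { C'.toSubring with
      inv_mem' := fun x hx => inv_mem_centralizer A hx }
  refine finite_of_comm A C (fun c hc => ?_) hcomm
  show c ∈ C'
  rw [hC', Subalgebra.mem_centralizer_iff]
  exact hc

theorem descend [Algebra.IsAlgebraic k D] [Module.Finite (Subring.center D) D] (S : Finset D) :
    ∃ A : Subalgebra k D, A.toSubmodule.FG ∧ (∀ s ∈ S, s ∈ A) ∧
      ∃ a : Fin (Module.finrank (Subring.center D) D) → A,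
        LinearIndependent (Subring.center A) a := by
  classical
  set M := Module.finrank (Subring.center D) D with hM
  let d := Module.finBasis (Subring.center D) D
  -- the elements whose coordinates we need
  let T : Finset D := (insert 1 (S ∪ univ.image fun p : Fin M × Fin M => d p.1 * d p.2))
  let co : Finset D := (T ×ˢ (univ : Finset (Fin M))).image fun p => ((d.repr p.1 p.2 :
    Subring.center D) : D)
  obtain ⟨E, hE, hEc, hco⟩ := center_fd (k := k) co (by
    intro t ht
    rw [Finset.mem_image] at ht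
    obtain ⟨p, _, rfl⟩ := ht
    refine ⟨?_, (Algebra.IsAlgebraic.isAlgebraic _).isIntegral⟩
    rw [Subalgebra.mem_center_iff]
    intro b
    exact Subring.mem_center_iff.mp (d.repr p.1 p.2).2 b)
  set V := Submodule.span k (Set.range d) with hV
  have hVfg : V.FG := Submodule.fg_span (Set.finite_range _)
  have hdV : ∀ i, d i ∈ V := fun i => Submodule.subset_span ⟨i, rfl⟩
  have hT : ∀ t ∈ T, t ∈ E.toSubmodule * V := by
    intro t ht
    have h1 : t = ∑ l, ((d.repr t l : Subring.center D) : D) * d l := (d.sum_repr t).symm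
    rw [h1]
    refine Submodule.sum_mem _ fun l _ => Submodule.mul_mem_mul ?_ (hdV l)
    exact hco _ (Finset.mem_image.mpr ⟨(t, l), Finset.mem_product.mpr ⟨ht, mem_univ l⟩, rfl⟩)
  have hVE : V * E.toSubmodule ≤ E.toSubmodule * V := by
    rw [Submodule.mul_le]
    intro v hv e he
    rw [Subalgebra.mem_center_iff.mp (hEc he) v]
    exact Submodule.mul_mem_mul he hv
  have hVV : V * V ≤ E.toSubmodule * V := by
    rw [hV, Submodule.span_mul_span, Submodule.span_le]
    rintro _ ⟨_, ⟨i, rfl⟩, _, ⟨j, rfl⟩, rfl⟩
    refine hT _ ?_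
    exact Finset.mem_insert_of_mem (Finset.mem_union_right _ (Finset.mem_image.mpr
      ⟨(i, j), mem_univ _, rfl⟩))
  have hEE : E.toSubmodule * E.toSubmodule = E.toSubmodule :=
    (Subalgebra.isIdempotentElem_toSubmodule E).eq
  have hmul : (E.toSubmodule * V) * (E.toSubmodule * V) ≤ E.toSubmodule * V := by
    calc (E.toSubmodule * V) * (E.toSubmodule * V) = E.toSubmodule * (V * E.toSubmodule) * V := by
          simp only [mul_assoc]
      _ ≤ E.toSubmodule * (E.toSubmodule * V) * V := mul_le_mul' (mul_le_mul' le_rfl hVE) le_rfl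
      _ = (E.toSubmodule * E.toSubmodule) * (V * V) := by simp only [mul_assoc]
      _ ≤ E.toSubmodule * (E.toSubmodule * V) := by rw [hEE]; exact mul_le_mul' le_rfl hVV
      _ = E.toSubmodule * V := by rw [← mul_assoc, hEE]
  let A : Subalgebra k D := (E.toSubmodule * V).toSubalgebra
    (hT 1 (Finset.mem_insert_self _ _)) (fun a b ha hb => hmul (Submodule.mul_mem_mul ha hb))
  have hdA : ∀ i, d i ∈ A := by
    intro i
    have := Submodule.mul_mem_mul (show (1 : D) ∈ E.toSubmodule from E.one_mem) (hdV i)
    rw [one_mul] at this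
    exact this
  refine ⟨A, ?_, ?_, fun i => ⟨d i, hdA i⟩, ?_⟩
  · show ((E.toSubmodule * V).toSubalgebra _ _).toSubmodule.FG
    rw [Submodule.toSubalgebra_toSubmodule]
    exact hE.mul hVfg
  · intro s hs
    exact hT s (Finset.mem_insert_of_mem (Finset.mem_union_left _ hs))
  · rw [Fintype.linearIndependent_iff]
    intro g hg i
    have hgc : ∀ i, ((g i : A) : D) ∈ Subring.center D := by
      intro i
      rw [Subring.mem_center_iff]
      intro x
      have h1 : x = ∑ l, ((d.repr x l : Subring.center D) : D) * d l := (d.sum_repr x).symm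
      rw [h1, Finset.mul_sum, Finset.sum_mul]
      refine Finset.sum_congr rfl fun l _ => ?_
      have h2 : d l * ((g i : A) : D) = ((g i : A) : D) * d l :=
        congrArg Subtype.val (Subring.mem_center_iff.mp (g i).2 ⟨d l, hdA l⟩)
      have h3 := Subring.mem_center_iff.mp (d.repr x l).2 ((g i : A) : D)
      rw [mul_assoc, h2, ← mul_assoc, ← mul_assoc, h3]
    have h1 : ∑ i, ((g i : A) : D) * d i = 0 := by
      have := congrArg Subtype.val hg
      simp only [AddSubmonoidClass.coe_finsetSum] at this
      exact this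
    have h2 := Fintype.linearIndependent_iff.mp d.linearIndependent
      (fun i => ⟨((g i : A) : D), hgc i⟩) h1 i
    have h3 : ((g i : A) : D) = 0 := congrArg Subtype.val h2
    exact Subtype.ext (Subtype.ext h3)

end Vale.Agent.P199
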