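import Mathlib

/-!
# P199: multiplication operators on a division ring, density, conjugacy of algebraic elements
-/

set_option autoImplicit false

open Finset Polynomial

namespace Vale.Agent.P199

variable {D : Type*} [DivisionRing D]

/-- sums of operators `a ↦ y a w` -/
inductive Mop : (D → D) → Prop
  | lr (y w : D) : Mop (fun a => y * a * w)
  | add (f g : D → D) : Mop f → Mop g → Mop (fun a => f a + g a)

theorem Mop.lmul (x : D) {f : D → D} (hf : Mop f) : Mop (fun a => x * f a) := by
  induction hf with
  | lr y w =>
    have := Mop.lr (x * y) w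
    simpa only [mul_assoc] using this
  | add f g _ _ h1 h2 =>
    have := Mop.add _ _ h1 h2
    simpa only [mul_add] using this

theorem Mop.rmul (x : D) {f : D → D} (hf : Mop f) : Mop (fun a => f a * x) := by
  induction hf with
  | lr y w =>
    have := Mop.lr y (w * x)
    simpa only [mul_assoc] using this
  | add f g _ _ h1 h2 =>
    have := Mop.add _ _ h1 h2
    simpa only [add_mul] using this

theorem Mop.zero : Mop (fun _ : D => (0 : D)) := by
  have := Mop.lr (0 : D) 0
  simpa using this

theorem Mop.id : Mop (fun a : D => a) := by
  have := Mop.lr (1 : D) 1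
  simpa using this

theorem Mop.sum {ι : Type*} (s : Finset ι) (F : ι → D → D) (hF : ∀ i ∈ s, Mop (F i)) :
    Mop (fun a => ∑ i ∈ s, F i a) := by
  classical
  induction s using Finset.induction_on with
  | empty => simpa using Mop.zero
  | insert i s hi ih =>
    have h1 := hF i (mem_insert_self i s)
    have h2 := ih fun j hj => hF j (mem_insert_of_mem hj)
    have := Mop.add _ _ h1 h2
    simpa only [sum_insert hi] using this

theorem Mop.sub {f g : D → D} (hf : Mop f) (hg : Mop g) : Mop (fun a => f a - g a) := by
  have := Mop.add _ _ hf (hg.lmul (-1))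
  simpa only [neg_one_mul, ← sub_eq_add_neg] using this

/-- density: dual operators for elements independent over the center -/
theorem density (n : ℕ) : ∀ a : Fin n → D, LinearIndependent (Subring.center D) a → ∀ i,
    ∃ f : D → D, Mop f ∧ ∀ j, f (a j) = if j = i then 1 else 0 := by
  induction n with
  | zero => intro a _ i; exact i.elim0
  | succ n ih =>
    intro a ha i
    by_contra hcon
    push Not at hcon
    have ha' : LinearIndependent (Subring.center D) (fun l : Fin n => a (i.succAbove l)) :=
      ha.comp _ Fin.succAbove_right_injective
    choose T hT hTa using ih _ ha'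
    have key : ∀ f : D → D, Mop f → (∀ l : Fin n, f (a (i.succAbove l)) = 0) → f (a i) = 0 := by
      intro f hf h0
      by_contra hne
      obtain ⟨j, hj⟩ := hcon _ (hf.lmul (f (a i))⁻¹)
      apply hj
      by_cases hji : j = i
      · rw [if_pos hji, hji, inv_mul_cancel₀ hne]
      · rw [if_neg hji]
        obtain ⟨l, rfl⟩ := Fin.exists_succAbove_eq hji
        rw [h0 l, mul_zero]
    have star : ∀ f : D → D, Mop f → f (a i) = ∑ l, f (a (i.succAbove l)) * T l (a i) := by
      intro f hf
      have h1 : Mop (fun x => f x - ∑ l, f (a (i.succAbove l)) * T l x) :=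
        hf.sub (Mop.sum _ _ fun l _ => (hT l).lmul _)
      have h2 := key _ h1 fun l => by
        simp only [hTa, mul_ite, mul_one, mul_zero]
        rw [Finset.sum_ite_eq]
        simp
      exact sub_eq_zero.mp h2
    have hb : ∀ l, T l (a i) ∈ Subring.center D := by
      intro l
      rw [Subring.mem_center_iff]
      intro y
      have h1 := star _ ((hT l).rmul y)
      simp only [hTa, ite_mul, one_mul, zero_mul] at h1
      rw [Finset.sum_ite_eq'] at h1
      simp only [mem_univ, if_true] at h1
      exact h1.symm
    have h3 := star _ Mop.id
    rw [Fintype.linearIndependent_iff] at ha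
    have h4 := ha (fun j => if h : ∃ l, i.succAbove l = j then -⟨T h.choose (a i), hb _⟩ else 1) ?_ i
    · rw [dif_neg] at h4
      · exact one_ne_zero h4
      · rintro ⟨l, hl⟩
        exact Fin.succAbove_ne i l hl
    · rw [Fin.sum_univ_succAbove _ i]
      have e1 : (if h : ∃ l, i.succAbove l = i then -⟨T h.choose (a i), hb _⟩
          else (1 : Subring.center D)) = 1 := by
        rw [dif_neg]
        rintro ⟨l, hl⟩
        exact Fin.succAbove_ne i l hl
      rw [e1, one_smul]
      have e2 : ∀ l : Fin n, (if h : ∃ l', i.succAbove l' = i.succAbove l then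
          -⟨T h.choose (a i), hb _⟩ else (1 : Subring.center D)) • a (i.succAbove l)
          = -(a (i.succAbove l) * T l (a i)) := by
        intro l
        have hex : ∃ l', i.succAbove l' = i.succAbove l := ⟨l, rfl⟩
        rw [dif_pos hex]
        have hch : hex.choose = l := Fin.succAbove_right_injective hex.choose_spec
        rw [neg_smul, Subring.smul_def]
        simp only [smul_eq_mul]
        rw [hch, (Subring.mem_center_iff.mp (hb l) _)]
      rw [Finset.sum_congr rfl fun l _ => e2 l, Finset.sum_neg_distrib, ← h3, add_neg_cancel]

/-- Artin-Whaples -/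
theorem artin_whaples {n : ℕ} (a : Fin n → D) (ha : LinearIndependent (Subring.center D) a)
    (c : Fin n → D) (h : ∀ u, ∑ i, c i * u * a i = 0) (i : Fin n) : c i = 0 := by
  obtain ⟨f, hf, hfa⟩ := density n a ha i
  have key : ∀ g : D → D, Mop g → ∑ j, c j * g (a j) = 0 := by
    intro g hg
    induction hg with
    | lr y w =>
      have := congrArg (· * w) (h y)
      simp only [Finset.sum_mul, zero_mul] at this
      simpa only [mul_assoc] using this
    | add f g _ _ h1 h2 =>
      simp only [mul_add, Finset.sum_add_distrib, h1, h2, add_zero]
  have h1 := key f hf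
  simp only [hfa, mul_ite, mul_one, mul_zero] at h1
  rw [Finset.sum_ite_eq'] at h1
  simpa using h1

end Vale.Agent.P199
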