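import Vale.Agent.P199.Main

/-!
# P199: mutually commuting noncommuting pairs
-/

set_option autoImplicit false

open Finset

namespace Vale.Agent.P199

universe u v

variable {k : Type u} [Field k] {D : Type v} [DivisionRing D] [Algebra k D]

/-- `A` contains `r` mutually commuting noncommuting pairs -/
def HasPairs (A : Subalgebra k D) (r : ℕ) : Prop :=
  ∃ x y : Fin r → D, (∀ i, x i ∈ A ∧ y i ∈ A ∧ x i * y i ≠ y i * x i) ∧
    ∀ i j, i ≠ j → x i * x j = x j * x i ∧ x i * y j = y j * x i ∧ y i * y j = y j * y i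

theorem hasPairs_succ (A B E : Subalgebra k D) (hAE : A ≤ E) (hBE : B ≤ E) {r : ℕ}
    (hAB : ∀ a ∈ A, ∀ b ∈ B, a * b = b * a) (hA : HasPairs A r)
    (hBn : ∃ a ∈ B, ∃ b ∈ B, a * b ≠ b * a) : HasPairs E (r + 1) := by
  obtain ⟨x, y, hxy, hc⟩ := hA
  obtain ⟨a, ha, b, hb, hab⟩ := hBn
  refine ⟨Fin.cons a x, Fin.cons b y, ?_, ?_⟩
  · intro i
    refine Fin.cases ?_ (fun i => ?_) i
    · simp only [Fin.cons_zero]
      exact ⟨hBE ha, hBE hb, hab⟩
    · simp only [Fin.cons_succ]
      exact ⟨hAE (hxy i).1, hAE (hxy i).2.1, (hxy i).2.2⟩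
  · intro i j
    refine Fin.cases ?_ (fun i => ?_) i
    · refine Fin.cases ?_ (fun j => ?_) j
      · intro h; exact absurd rfl h
      · intro _
        simp only [Fin.cons_zero, Fin.cons_succ]
        exact ⟨(hAB _ (hxy j).1 _ ha).symm, (hAB _ (hxy j).2.1 _ ha).symm,
          (hAB _ (hxy j).2.1 _ hb).symm⟩
    · refine Fin.cases ?_ (fun j => ?_) j
      · intro _
        simp only [Fin.cons_zero, Fin.cons_succ]
        exact ⟨hAB _ (hxy i).1 _ ha, hAB _ (hxy i).1 _ hb, hAB _ (hxy i).2.1 _ hb⟩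
      · intro h
        simp only [Fin.cons_succ]
        exact hc i j fun h' => h (by rw [h'])

theorem pairs_finite [Algebra.IsAlgebraic k D] (hN : NilGal k) {m : ℕ}
    (hB : ∀ A : Subalgebra k D, FiniteDimensional k A → ∀ x y : Fin (m + 1) → A,
      (∀ i j, i ≠ j → x i * x j = x j * x i ∧ x i * y j = y j * x i ∧ y i * y j = y j * y i) →
      ∃ i, x i * y i = y i * x i) : Module.Finite (Subring.center D) D := by
  obtain ⟨r, ⟨A, hA, hp⟩, hmax⟩ := exists_max (fun r => ∃ A : Subalgebra k D,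
    A.toSubmodule.FG ∧ HasPairs A r) m
    ⟨⊥, bot_fg, Fin.elim0, Fin.elim0, fun i => i.elim0, fun i => i.elim0⟩ (by
      rintro r ⟨A, hA, x, y, hxy, hc⟩
      have hfA : FiniteDimensional k A := (Submodule.fg_iff_finiteDimensional _).mp hA
      by_contra hr
      have hr' : m + 1 ≤ r := by omega
      obtain ⟨i, hi⟩ := hB A hfA (fun i => ⟨x (Fin.castLE hr' i), (hxy _).1⟩)
        (fun i => ⟨y (Fin.castLE hr' i), (hxy _).2.1⟩) (by
          intro i j hij
          have h := hc (Fin.castLE hr' i) (Fin.castLE hr' j)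
            (fun h => hij (Fin.castLE_injective hr' h))
          exact ⟨Subtype.ext h.1, Subtype.ext h.2.1, Subtype.ext h.2.2⟩)
      exact (hxy (Fin.castLE hr' i)).2.2 (congrArg Subtype.val hi))
  have hfA : FiniteDimensional k A := (Submodule.fg_iff_finiteDimensional _).mp hA
  set C' := Subalgebra.centralizer k (A : Set D) with hC'
  have hcomm : ∀ x ∈ C', ∀ y ∈ C', x * y = y * x := by
    by_contra hcon
    push Not at hcon
    obtain ⟨c1, hc1, c2, hc2, hne⟩ := hcon
    let _ : DivisionRing C' := DivisionRing.ofIsUnitOrEqZero (by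
      intro x
      by_cases hx : x = 0
      · exact Or.inr hx
      · left
        have hx' : (x : D) ≠ 0 := fun h => hx (Subtype.ext h)
        exact ⟨⟨x, ⟨(x : D)⁻¹, inv_mem_centralizer A x.2⟩, Subtype.ext (mul_inv_cancel₀ hx'),
          Subtype.ext (inv_mul_cancel₀ hx')⟩, rfl⟩)
    have halg : Algebra.IsAlgebraic k C' :=
      Algebra.IsAlgebraic.of_injective C'.val Subtype.val_injective
    have hnc : Subring.center C' ≠ ⊤ := by
      intro h
      have : (⟨c1, hc1⟩ : C') ∈ Subring.center C' := by rw [h]; exact Subring.mem_top _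
      exact hne (congrArg Subtype.val (Subring.mem_center_iff.mp this ⟨c2, hc2⟩)).symm
    obtain ⟨B', hB'fg, x, hx, y, hy, hxy⟩ := exists_pair hN hnc
    set B := B'.map C'.val with hBdef
    have hBfg : B.toSubmodule.FG := by
      rw [hBdef, Subalgebra.map_toSubmodule]
      exact hB'fg.map _
    have hBC : ∀ b ∈ B, b ∈ C' := by
      rintro _ ⟨b, _, rfl⟩
      exact b.2
    have hAB : ∀ a ∈ A, ∀ b ∈ B, a * b = b * a := fun s hs b hb =>
      (Subalgebra.mem_centralizer_iff k).mp (hBC b hb) s hs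
    obtain ⟨E, hE, hAE, hBE⟩ := prod_fd A B hA hBfg hAB
    have := hmax (r + 1) ⟨E, hE, hasPairs_succ A B E hAE hBE hAB hp ⟨x, ⟨x, hx, rfl⟩, y,
      ⟨y, hy, rfl⟩, fun h => hxy (Subtype.ext h)⟩⟩
    omega
  let C : Subfield D :=
    { C'.toSubring with
      inv_mem' := fun x hx => inv_mem_centralizer A hx }
  refine finite_of_comm A C (fun c hc => ?_) hcomm
  show c ∈ C'
  rw [hC', Subalgebra.mem_centralizer_iff]
  exact hc

end Vale.Agent.P199
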